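import Vale.Agent.P076.R2.H831V.Spec

/-! # P076, row P3: domination of the smoothed measures (helper968) -/

open MeasureTheory Complex FourierTransform Filter Topology Set
open scoped ENNReal NNReal

namespace Vale.Agent.P076.R2.H968

open Vale.Agent.P076 Vale.Agent.P076.H791 Vale.Agent.P076.R2.H45 Vale.Agent.P076.R2.H831
open Vale.Agent.P076.R2.H831.V2 Vale.Agent.P076.R2.H831V

variable {n : ℕ}

theorem meas_gam (c : ℝ) (ζ : E n) (μ : ℝ) :
    Measurable fun η : E n => gam c (ζ - η) (‖η‖ ^ 2 - μ) := by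
  unfold gam
  fun_prop

/-- the comparison of the Gaussians at two points of a cap -/
theorem gam_le {δ : ℝ} (ζ a b : E n) (w : ℝ) (h : ‖a - b‖ ≤ δ) :
    gam Real.pi (ζ - a) w ≤
      ENNReal.ofReal (Real.exp (Real.pi * δ ^ 2)) * gam (Real.pi / 2) (ζ - b) w := by
  unfold gam
  rw [← ENNReal.ofReal_mul (Real.exp_pos _).le, ← Real.exp_add]
  refine ENNReal.ofReal_le_ofReal (Real.exp_le_exp.2 ?_)
  have hpi := Real.pi_pos
  have h1 : ‖ζ - b‖ ≤ ‖ζ - a‖ + δ := by
    calc ‖ζ - b‖ = ‖(ζ - a) + (a - b)‖ := by congr 1; abel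
      _ ≤ ‖ζ - a‖ + ‖a - b‖ := norm_add_le _ _
      _ ≤ _ := by linarith
  have h2 : ‖ζ - b‖ ^ 2 ≤ 2 * ‖ζ - a‖ ^ 2 + 2 * δ ^ 2 := by
    have h3 : ‖ζ - b‖ ^ 2 ≤ (‖ζ - a‖ + δ) ^ 2 := by
      gcongr
    nlinarith [sq_nonneg (‖ζ - a‖ - δ)]
  have h4 : Real.pi / 2 * ‖ζ - b‖ ^ 2 ≤ Real.pi / 2 * (2 * ‖ζ - a‖ ^ 2 + 2 * δ ^ 2) := by gcongr
  have h5 : 0 ≤ Real.pi / 2 * w ^ 2 := by positivity
  nlinarith

theorem stDom (hn : 1 ≤ n) (hcap : StCap n) : StDom n := by
  intro δ hδ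
  obtain ⟨κ, hκ, hc⟩ := hcap δ hδ
  refine ⟨Real.toNNReal (Real.exp (Real.pi * δ ^ 2) / κ), fun V G θ hV hG hV0 hyp ζ μ => ?_⟩
  unfold KV
  set K : E n → ℝ≥0∞ := fun η => gam Real.pi (ζ - η) (‖η‖ ^ 2 - μ) with hK
  set K' : E n → ℝ≥0∞ := fun η => gam (Real.pi / 2) (ζ - η) (‖η‖ ^ 2 - μ) with hK'
  have mK : Measurable K := meas_gam _ _ _
  have mK' : Measurable K' := meas_gam _ _ _
  set e : ℝ≥0∞ := ENNReal.ofReal (Real.exp (Real.pi * δ ^ 2)) with he
  set c1 : ℝ≥0∞ := ENNReal.ofReal κ with hc1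
  have hc10 : c1 ≠ 0 := by rw [hc1]; simpa using hκ
  have hc1t : c1 ≠ ⊤ := ENNReal.ofReal_ne_top
  have hC : ((Real.toNNReal (Real.exp (Real.pi * δ ^ 2) / κ) : ℝ≥0) : ℝ≥0∞) = c1⁻¹ * e := by
    rw [he, hc1, ← ENNReal.ofReal_inv_of_pos hκ, ← ENNReal.ofReal_mul (by positivity)]
    show ENNReal.ofReal _ = _
    congr 1
    rw [div_eq_inv_mul]
  have p1 := lint_polar hn (f := fun η => V η * K η) (hV.mul mK)
  have p2 := lint_polar hn (f := fun η => G η * K' η) (hG.mul mK')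
  rw [hC]
  show ∫⁻ η, V η * K η ≤ c1⁻¹ * e * θ * ∫⁻ η, G η * K' η
  rw [p1, p2]
  have msm : ∀ ρ : ℝ, Measurable fun ω : Sp n => ρ • (ω : E n) := fun ρ =>
    measurable_subtype_coe.const_smul ρ
  have mB : Measurable fun ρ : Ioi (0 : ℝ) =>
      ∫⁻ ω, G (ρ.1 • ω.1) * K' (ρ.1 • ω.1) ∂sig n := by
    have h1 : Measurable fun p : Ioi (0 : ℝ) × Sp n => p.1.1 • (p.2 : E n) :=
      (measurable_subtype_coe.comp measurable_fst).smul
        (measurable_subtype_coe.comp measurable_snd)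
    exact ((hG.comp h1).mul (mK'.comp h1)).lintegral_prod_right'
  rw [← lintegral_const_mul _ mB]
  refine lintegral_mono fun ρ => ?_
  show ∫⁻ ω, V (ρ.1 • ω.1) * K (ρ.1 • ω.1) ∂sig n ≤
    c1⁻¹ * e * θ * ∫⁻ ω, G (ρ.1 • ω.1) * K' (ρ.1 • ω.1) ∂sig n
  obtain ⟨ρ, hρ0⟩ := ρ
  have hρ0' : (0 : ℝ) < ρ := hρ0
  simp only
  rcases lt_or_ge ρ 1 with hρ | hρ
  · have h0 : ∀ ω : Sp n, V (ρ • ω.1) * K (ρ • ω.1) = 0 := by
      intro ω
      have : ‖ρ • (ω : E n)‖ < 1 := by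
        rw [norm_smul, Real.norm_of_nonneg hρ0'.le, mem_sphere_zero_iff_norm.1 ω.2, mul_one]
        exact hρ
      rw [hV0 _ this, zero_mul]
    simp only [h0, lintegral_zero]
    exact zero_le
  set r : ℝ≥0∞ := ENNReal.ofReal (ρ ^ (n - 1)) with hr
  set D : Sp n → Set (Sp n) := fun ω => {ω' : Sp n | ‖ρ • (ω : E n) - ρ • (ω' : E n)‖ < δ} with hD
  have mDD : MeasurableSet {p : Sp n × Sp n | ‖ρ • (p.1 : E n) - ρ • (p.2 : E n)‖ < δ} := by
    refine measurableSet_lt ?_ measurable_const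
    exact (((msm ρ).comp measurable_fst).sub ((msm ρ).comp measurable_snd)).norm
  have mD : ∀ ω, MeasurableSet (D ω) := fun ω => by
    refine measurableSet_lt ?_ measurable_const
    exact (measurable_const.sub (msm ρ)).norm
  have mV : Measurable fun ω : Sp n => V (ρ • (ω : E n)) := hV.comp (msm ρ)
  have mKs : Measurable fun ω : Sp n => K (ρ • (ω : E n)) := mK.comp (msm ρ)
  have mK's : Measurable fun ω : Sp n => K' (ρ • (ω : E n)) := mK'.comp (msm ρ)
  -- pointwise comparison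
  have hgam : ∀ ω ω' : Sp n, ω' ∈ D ω → K (ρ • (ω : E n)) ≤ e * K' (ρ • (ω' : E n)) := by
    intro ω ω' hm
    have hn1 : ‖ρ • (ω : E n)‖ = ‖ρ • (ω' : E n)‖ := by
      rw [norm_smul, norm_smul, mem_sphere_zero_iff_norm.1 ω.2, mem_sphere_zero_iff_norm.1 ω'.2]
    show gam Real.pi (ζ - ρ • (ω : E n)) (‖ρ • (ω : E n)‖ ^ 2 - μ) ≤
      e * gam (Real.pi / 2) (ζ - ρ • (ω' : E n)) (‖ρ • (ω' : E n)‖ ^ 2 - μ)
    rw [hn1]
    exact gam_le ζ _ _ _ (le_of_lt hm)
  have hmain : c1 * ∫⁻ ω, V (ρ • (ω : E n)) * K (ρ • (ω : E n)) ∂sig n ≤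
      e * θ * ∫⁻ ω, G (ρ • (ω : E n)) * K' (ρ • (ω : E n)) ∂sig n := by
    calc c1 * ∫⁻ ω, V (ρ • (ω : E n)) * K (ρ • (ω : E n)) ∂sig n
        = ∫⁻ ω, c1 * (V (ρ • (ω : E n)) * K (ρ • (ω : E n))) ∂sig n :=
          (lintegral_const_mul _ (mV.mul mKs)).symm
      _ ≤ ∫⁻ ω, ∫⁻ ω', (D ω).indicator (fun ω' => r * (V (ρ • (ω : E n)) *
            (e * K' (ρ • (ω' : E n))))) ω' ∂sig n ∂sig n := by
          refine lintegral_mono fun ω => ?_
          have h1 := hc ρ hρ ω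
          calc c1 * (V (ρ • (ω : E n)) * K (ρ • (ω : E n)))
              ≤ (r * sig n (D ω)) * (V (ρ • (ω : E n)) * K (ρ • (ω : E n))) := by gcongr
            _ = ∫⁻ ω', (D ω).indicator (fun _ => r * (V (ρ • (ω : E n)) *
                  K (ρ • (ω : E n)))) ω' ∂sig n := by
                rw [lintegral_indicator_const (mD ω)]
                ring
            _ ≤ _ := by
                refine lintegral_mono fun ω' => ?_
                by_cases hm : ω' ∈ D ω
                · rw [indicator_of_mem hm, indicator_of_mem hm]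
                  gcongr
                  exact hgam ω ω' hm
                · rw [indicator_of_notMem hm]
                  exact zero_le
      _ = ∫⁻ ω', ∫⁻ ω, (D ω).indicator (fun ω' => r * (V (ρ • (ω : E n)) *
            (e * K' (ρ • (ω' : E n))))) ω' ∂sig n ∂sig n := by
          refine lintegral_lintegral_swap ?_
          have e1 : (Function.uncurry fun (ω ω' : Sp n) => (D ω).indicator (fun ω' => r *
              (V (ρ • (ω : E n)) * (e * K' (ρ • (ω' : E n))))) ω') =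
              {p : Sp n × Sp n | ‖ρ • (p.1 : E n) - ρ • (p.2 : E n)‖ < δ}.indicator
                (fun p => r * (V (ρ • (p.1 : E n)) * (e * K' (ρ • (p.2 : E n))))) := by
            funext ⟨ω, ω'⟩
            rfl
          rw [e1]
          refine Measurable.aemeasurable (Measurable.indicator ?_ mDD)
          exact ((mV.comp measurable_fst).mul ((mK's.comp measurable_snd).const_mul e)).const_mul r
      _ ≤ ∫⁻ ω', e * θ * (G (ρ • (ω' : E n)) * K' (ρ • (ω' : E n))) ∂sig n := by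
          refine lintegral_mono fun ω' => ?_
          have e2 : ∀ ω : Sp n, (D ω).indicator (fun ω' => r * (V (ρ • (ω : E n)) *
              (e * K' (ρ • (ω' : E n))))) ω' =
              (e * K' (ρ • (ω' : E n))) * (r * (D ω').indicator
                (fun ω => V (ρ • (ω : E n))) ω) := by
            intro ω
            have hsym : ω' ∈ D ω ↔ ω ∈ D ω' := by
              show ‖ρ • (ω : E n) - ρ • (ω' : E n)‖ < δ ↔ ‖ρ • (ω' : E n) - ρ • (ω : E n)‖ < δ
              rw [norm_sub_rev]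
            by_cases hm : ω' ∈ D ω
            · rw [indicator_of_mem hm, indicator_of_mem (hsym.1 hm)]; ring
            · rw [indicator_of_notMem hm, indicator_of_notMem (fun h => hm (hsym.2 h))]; simp
          calc ∫⁻ ω, (D ω).indicator (fun ω' => r * (V (ρ • (ω : E n)) *
                (e * K' (ρ • (ω' : E n))))) ω' ∂sig n
              = ∫⁻ ω, (e * K' (ρ • (ω' : E n))) * (r * (D ω').indicator
                (fun ω => V (ρ • (ω : E n))) ω) ∂sig n := lintegral_congr e2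
            _ = (e * K' (ρ • (ω' : E n))) * (r * ∫⁻ ω in D ω', V (ρ • (ω : E n)) ∂sig n) := by
                rw [lintegral_const_mul _ ((mV.indicator (mD ω')).const_mul r),
                  lintegral_const_mul _ (mV.indicator (mD ω')), lintegral_indicator (mD ω')]
            _ ≤ (e * K' (ρ • (ω' : E n))) * (θ * G (ρ • (ω' : E n))) := by
                exact mul_le_mul_right (hyp ρ hρ ω') _
            _ = e * θ * (G (ρ • (ω' : E n)) * K' (ρ • (ω' : E n))) := by ring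
      _ = e * θ * ∫⁻ ω, G (ρ • (ω : E n)) * K' (ρ • (ω : E n)) ∂sig n :=
          lintegral_const_mul _ ((hG.comp (msm ρ)).mul mK's)
  calc ∫⁻ ω, V (ρ • (ω : E n)) * K (ρ • (ω : E n)) ∂sig n
      = c1⁻¹ * (c1 * ∫⁻ ω, V (ρ • (ω : E n)) * K (ρ • (ω : E n)) ∂sig n) := by
        rw [← mul_assoc, ENNReal.inv_mul_cancel hc10 hc1t, one_mul]
    _ ≤ c1⁻¹ * (e * θ * ∫⁻ ω, G (ρ • (ω : E n)) * K' (ρ • (ω : E n)) ∂sig n) := by gcongr
    _ = _ := by ring

end Vale.Agent.P076.R2.H968
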